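/-
helper71 — row 9 (S0010), work package LLf: the pure-field LINE LEMMA in helper31's names
(`pPow p = L^p`, `pAdj p x = L^p(x)`, `PIndep p x y`).

`line_lemma_field`: let `x, y` be `p`-independent in a field `L` of characteristic `p`, let
`φ c ∈ L^p(x) \ L^p`, `γ c ∈ L^p(y) \ L^p` be families indexed by an infinite type, pairwise
non-proportional modulo `L^p`, and `h ≠ 0` with `h / φ c ∈ L^p(γ c / φ c)` for all `c`.  Then
there are `0 < m < p`, `P ∈ L^p(x) \ L^p`, `Q ∈ L^p(y) \ L^p` and an injective `lam : ι → L^p`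
with `lam c0 = 0`, `lam c1 = 1`, such that, up to non-zero `p`-th power factors,
`φ c = (P + lam c)^m`, `γ c = (Q - lam c)^m`, `h = (P + Q)^m`.

This is a thin bridge: the algebra is `Crest.Agent.Helper71.MK.line_lemma_core'` and
`Crest.Agent.Helper71.MK.eig_of_powerBasis`; the derivations `∂/∂x`, `∂/∂y` and their kernels
are helper31's (`Crest.Agent.Helper31.S0010`).
-/
import Crest.Agent.Helper31.S0010.Deriv
import Crest.Agent.Helper71.MK.Eig
import Crest.Agent.Helper71.MK.LineLemma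

set_option autoImplicit false

namespace Crest.Agent.Helper71.S0010

open Crest.Agent.Helper31.S0010

variable {L : Type*} [Field L]

/-- If a derivation maps a generating set into a subfield `F` containing the generated
subfield, it maps the generated subfield into `F`. -/
theorem deriv_mem_of_mem_closure (D : Derivation ℤ L L) {S : Set L} (F : Subfield L)
    (hSF : Subfield.closure S ≤ F) (hS : ∀ s ∈ S, D s ∈ F) {w : L}
    (hw : w ∈ Subfield.closure S) : D w ∈ F := by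
  induction hw using Subfield.closure_induction with
  | mem s hs => exact hS s hs
  | one => rw [D.map_one_eq_zero]; exact F.zero_mem
  | add a b _ _ iha ihb => rw [map_add]; exact F.add_mem iha ihb
  | neg a _ iha => rw [map_neg]; exact F.neg_mem iha
  | inv a ha iha =>
    rw [Derivation.leibniz_inv, smul_eq_mul]
    exact F.mul_mem (F.neg_mem (F.pow_mem (F.inv_mem (hSF ha)) 2)) iha
  | mul a b ha hb iha ihb =>
    rw [Derivation.leibniz, smul_eq_mul, smul_eq_mul]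
    exact F.add_mem (F.mul_mem (hSF ha) ihb) (F.mul_mem (hSF hb) iha)

/-- The "Jacobian" `D₁ t * D₂ w - D₂ t * D₁ w` vanishes on a generated subfield as soon as it
vanishes on the generators. -/
theorem jac_of_mem_closure (D₁ D₂ : Derivation ℤ L L) {S : Set L} (t : L)
    (hS : ∀ s ∈ S, D₁ t * D₂ s = D₂ t * D₁ s) {w : L} (hw : w ∈ Subfield.closure S) :
    D₁ t * D₂ w = D₂ t * D₁ w := by
  induction hw using Subfield.closure_induction with
  | mem s hs => exact hS s hs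
  | one => rw [D₁.map_one_eq_zero, D₂.map_one_eq_zero, mul_zero, mul_zero]
  | add a b _ _ iha ihb => rw [map_add, map_add, mul_add, mul_add, iha, ihb]
  | neg a _ iha => rw [map_neg, map_neg, mul_neg, mul_neg, iha]
  | inv a _ iha =>
    rw [Derivation.leibniz_inv, Derivation.leibniz_inv, smul_eq_mul, smul_eq_mul]
    linear_combination (-a⁻¹ ^ 2) * iha
  | mul a b _ _ iha ihb =>
    rw [Derivation.leibniz, Derivation.leibniz, smul_eq_mul, smul_eq_mul, smul_eq_mul,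
      smul_eq_mul]
    linear_combination a * ihb + b * iha

variable {p : ℕ} [Fact p.Prime] [CharP L p]

/-- A derivation with `D x ∈ L^p(x)` maps `L^p(x)` into itself. -/
theorem deriv_mem_pAdj (D : Derivation ℤ L L) {x : L} (hx : D x ∈ pAdj p x) {w : L}
    (hw : w ∈ pAdj p x) : D w ∈ pAdj p x := by
  refine deriv_mem_of_mem_closure D (pAdj p x) le_rfl ?_ hw
  rintro s (hs | rfl)
  · rw [deriv_eq_zero_of_mem_pPow p D hs]; exact zero_mem _
  · exact hx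

/-- For `w ∈ L^p(t)` and any two derivations, `D₁ t * D₂ w = D₂ t * D₁ w`. -/
theorem jac_of_mem_pAdj (D₁ D₂ : Derivation ℤ L L) {t w : L} (hw : w ∈ pAdj p t) :
    D₁ t * D₂ w = D₂ t * D₁ w := by
  refine jac_of_mem_closure D₁ D₂ t ?_ hw
  rintro s (hs | rfl)
  · rw [deriv_eq_zero_of_mem_pPow p D₁ hs, deriv_eq_zero_of_mem_pPow p D₂ hs, mul_zero, mul_zero]
  · exact mul_comm _ _

/-- **(Eig)** in helper31's names: on `L^p(z)`, an "eigenvector" `w` of the logarithmic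
derivative with eigenvalue `κ ∈ L^p` relative to `t` is `e * t^m` with `κ = m`. -/
theorem eig_pAdj (z : L) (D : Derivation ℤ L L) (t : L) (ht : t ∈ pAdj p z) (w : L)
    (hw : w ∈ pAdj p z) (hDt : D t ≠ 0) (hw0 : w ≠ 0) (κ : L) (hκ : κ ∈ pPow (L := L) p)
    (hrel : D w * t = κ * w * D t) :
    ∃ m : ℕ, m < p ∧ κ = (m : L) ∧ ∃ e ∈ pPow (L := L) p, w = e * t ^ m := by
  have htC : t ∉ pPow (L := L) p := fun hc => hDt (deriv_eq_zero_of_mem_pPow p D hc)
  have hz : z ∈ pAdj p t := exchange p (pPow p) (pow_mem_pPow p) ht htC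
  have hle : pAdj p z ≤ pAdj p t := adj_le (pPow_le_pAdj p t) hz
  exact Crest.Agent.Helper71.MK.eig_of_powerBasis p (pPow p) (pAdj p t) D
    (fun a ha => deriv_eq_zero_of_mem_pPow p D ha) t hDt
    (fun w hw => (mem_adj_iff_exists_sum p (pPow p) (pow_mem_pPow p) t w).1 hw)
    (fun a ha h0 => eq_zero_of_sum_eq_zero p (pPow p) (pow_mem_pPow p) htC a ha h0)
    w (hle hw) hw0 κ hκ hrel

/-- **(LLf), the pure-field line lemma.** -/
theorem line_lemma_field {x y : L} (hxy : PIndep p x y)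
    {ι : Type*} [Infinite ι] (c0 c1 : ι) (hc : c0 ≠ c1)
    (φ γ : ι → L) (h : L) (hh0 : h ≠ 0)
    (hφ : ∀ c, φ c ∈ pAdj p x ∧ φ c ∉ pPow (L := L) p)
    (hγ : ∀ c, γ c ∈ pAdj p y ∧ γ c ∉ pPow (L := L) p)
    (hh : ∀ c, h / φ c ∈ pAdj p (γ c / φ c))
    (hφinj : ∀ c c', φ c / φ c' ∈ pPow (L := L) p → c = c')
    (hγinj : ∀ c c', γ c / γ c' ∈ pPow (L := L) p → c = c') :
    ∃ m : ℕ, 0 < m ∧ m < p ∧ ∃ P ∈ pAdj p x, ∃ Q ∈ pAdj p y,
      P ∉ pPow (L := L) p ∧ Q ∉ pPow (L := L) p ∧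
      ∃ lam : ι → L, (∀ c, lam c ∈ pPow (L := L) p) ∧ lam c0 = 0 ∧ lam c1 = 1 ∧
        Function.Injective lam ∧
        (∀ c, ∃ e ∈ pPow (L := L) p, e ≠ 0 ∧ φ c = e * (P + lam c) ^ m) ∧
        (∀ c, ∃ e ∈ pPow (L := L) p, e ≠ 0 ∧ γ c = e * (Q - lam c) ^ m) ∧
        ∃ e ∈ pPow (L := L) p, e ≠ 0 ∧ h = e * (P + Q) ^ m := by
  obtain ⟨D₁, D₂, h1x, h1y, h2x, h2y⟩ := exists_derivation_pair p hxy
  have h1x0 : D₁ x ≠ 0 := by rw [h1x]; exact one_ne_zero
  have h2y0 : D₂ y ≠ 0 := by rw [h2y]; exact one_ne_zero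
  have hCM : pPow (L := L) p ≤ pAdj₂ p x y := (pPow_le_pAdj p x).trans (pAdj_le_pAdj₂ p x y)
  have hyM : pAdj p y ≤ pAdj₂ p x y := adj_le hCM (self_mem_adj _ _)
  have hφ0 : ∀ c, φ c ≠ 0 := fun c h0 => (hφ c).2 (h0 ▸ zero_mem _)
  have hγ0 : ∀ c, γ c ≠ 0 := fun c h0 => (hγ c).2 (h0 ▸ zero_mem _)
  have hhM : h ∈ pAdj₂ p x y := by
    have h1 : γ c0 / φ c0 ∈ pAdj₂ p x y :=
      div_mem (hyM (hγ c0).1) (pAdj_le_pAdj₂ p x y (hφ c0).1)
    have h2 : h / φ c0 ∈ pAdj₂ p x y := (adj_le hCM h1) (hh c0)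
    have h3 := mul_mem h2 (pAdj_le_pAdj₂ p x y (hφ c0).1)
    rwa [div_mul_cancel₀ _ (hφ0 c0)] at h3
  have h1x' : D₁ x ∈ pAdj p x := by rw [h1x]; exact one_mem _
  have h2y' : D₂ y ∈ pAdj p y := by rw [h2y]; exact one_mem _
  obtain ⟨m, hm0, hmp, P, hP, Q, hQ, hPC, hQC, lam, hlam, hl0, hl1, hinj, hφm, hγm, hhm⟩ :=
    Crest.Agent.Helper71.MK.line_lemma_core' p (pPow p) (pAdj p x) (pAdj p y) (pAdj₂ p x y)
      (pPow_le_pAdj p x) (pPow_le_pAdj p y) (pAdj_le_pAdj₂ p x y) hyM D₁ D₂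
      (fun a ha => ⟨deriv_eq_zero_of_mem_pAdj h2x ha, deriv_mem_pAdj D₁ h1x' ha⟩)
      (fun a ha => ⟨deriv_eq_zero_of_mem_pAdj h1y ha, deriv_mem_pAdj D₂ h2y' ha⟩)
      (fun a ha h0 => mem_pPow_of_deriv_eq_zero h1x0 ha h0)
      (fun a ha h0 => mem_pPow_of_deriv_eq_zero h2y0 ha h0)
      (fun a ha h1 h2 => mem_pPow_of_deriv_eq_zero₂ h1x0 h2x h2y0 ha h1 h2)
      (fun t ht w hw => eig_pAdj x D₁ t ht w hw) (fun t ht w hw => eig_pAdj y D₂ t ht w hw)
      c0 c1 hc φ γ h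
      (deriv_comm_of_mem_pAdj₂ h1x h1y h2x h2y hhM) hφ hγ hhM hh0 hφinj hγinj
      (fun c => Crest.Agent.Helper71.MK.jacobian_poly D₁ D₂ (φ c) (γ c) h (hφ0 c)
        (deriv_eq_zero_of_mem_pAdj h2x (hφ c).1) (deriv_eq_zero_of_mem_pAdj h1y (hγ c).1)
        (jac_of_mem_pAdj D₁ D₂ (hh c)))
  refine ⟨m, hm0, hmp, P, hP, Q, hQ, hPC, hQC, lam, hlam, hl0, hl1, hinj, ?_, ?_, ?_⟩
  · intro c
    obtain ⟨e, he, hφe⟩ := hφm c
    refine ⟨e, he, ?_, hφe⟩
    rintro rfl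
    exact hφ0 c (by rw [hφe, zero_mul])
  · intro c
    obtain ⟨e, he, hγe⟩ := hγm c
    refine ⟨e, he, ?_, hγe⟩
    rintro rfl
    exact hγ0 c (by rw [hγe, zero_mul])
  · obtain ⟨e, he, hhe⟩ := hhm
    refine ⟨e, he, ?_, hhe⟩
    rintro rfl
    exact hh0 (by rw [hhe, zero_mul])

end Crest.Agent.Helper71.S0010
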