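/-
helper71 — row 9 (S0010), work package LLf: the pure-field LINE LEMMA in the reference shape
of helper31's board post #1758 (`lineLemma`), as a wrapper of `line_lemma_field`.
-/
import Crest.Agent.Helper71.S0010.LLf

set_option autoImplicit false

namespace Crest.Agent.Helper71.S0010

open Crest.Agent.Helper31.S0010

variable {L : Type*} [Field L] {p : ℕ} [Fact p.Prime] [CharP L p]

/-- `a = e * b ^ m` with `e ∈ L^p`, `a ≠ 0`, gives `b ≠ 0` and `a / b ^ m ∈ L^p`. -/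
theorem ne_zero_and_div_mem_of_eq_mul_pow {a b e : L} {m : ℕ} (hm : 0 < m)
    (he : e ∈ pPow (L := L) p) (ha : a ≠ 0) (hab : a = e * b ^ m) :
    b ≠ 0 ∧ a / b ^ m ∈ pPow (L := L) p := by
  have hb : b ≠ 0 := by
    rintro rfl
    exact ha (by rw [hab, zero_pow hm.ne', mul_zero])
  refine ⟨hb, ?_⟩
  rw [hab, mul_div_assoc, div_self (pow_ne_zero m hb), mul_one]
  exact he

/-- **(LLf), the pure-field line lemma**, reference shape (board #1758). -/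
theorem lineLemma {ι : Type*} [Infinite ι] (c₀ c₁ : ι) (hc : c₁ ≠ c₀) {x y : L}
    (hxy : PIndep p x y) (φ γ : ι → L) (h : L) (hh : h ≠ 0)
    (hφ : ∀ c, φ c ∈ pAdj p x) (hφ' : ∀ c, φ c ∉ pPow (L := L) p)
    (hγ : ∀ c, γ c ∈ pAdj p y) (hγ' : ∀ c, γ c ∉ pPow (L := L) p)
    (hJ : ∀ c, h / φ c ∈ pAdj p (γ c / φ c))
    (hφi : ∀ c c', φ c / φ c' ∈ pPow (L := L) p → c = c')
    (hγi : ∀ c c', γ c / γ c' ∈ pPow (L := L) p → c = c') :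
    ∃ m : ℕ, 0 < m ∧ m < p ∧ ∃ (P Q : L) (lam : ι → L),
      P ∈ pAdj p x ∧ P ∉ pPow (L := L) p ∧ Q ∈ pAdj p y ∧ Q ∉ pPow (L := L) p ∧
      lam c₀ = 0 ∧ lam c₁ = 1 ∧ (∀ c, lam c ∈ pPow (L := L) p) ∧ Function.Injective lam ∧
      (∀ c, P + lam c ≠ 0 ∧ φ c / (P + lam c) ^ m ∈ pPow (L := L) p) ∧
      (∀ c, Q - lam c ≠ 0 ∧ γ c / (Q - lam c) ^ m ∈ pPow (L := L) p) ∧
      P + Q ≠ 0 ∧ h / (P + Q) ^ m ∈ pPow (L := L) p := by
  obtain ⟨m, hm0, hmp, P, hP, Q, hQ, hPC, hQC, lam, hlam, hl0, hl1, hinj, hφm, hγm, hhm⟩ :=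
    line_lemma_field hxy c₀ c₁ hc.symm φ γ h hh (fun c => ⟨hφ c, hφ' c⟩)
      (fun c => ⟨hγ c, hγ' c⟩) hJ hφi hγi
  refine ⟨m, hm0, hmp, P, Q, lam, hP, hPC, hQ, hQC, hl0, hl1, hlam, hinj, ?_, ?_, ?_⟩
  · intro c
    obtain ⟨e, he, -, hφe⟩ := hφm c
    exact ne_zero_and_div_mem_of_eq_mul_pow hm0 he (fun h0 => hφ' c (h0 ▸ zero_mem _)) hφe
  · intro c
    obtain ⟨e, he, -, hγe⟩ := hγm c
    exact ne_zero_and_div_mem_of_eq_mul_pow hm0 he (fun h0 => hγ' c (h0 ▸ zero_mem _)) hγe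
  · obtain ⟨e, he, -, hhe⟩ := hhm
    exact ne_zero_and_div_mem_of_eq_mul_pow hm0 he hh hhe

end Crest.Agent.Helper71.S0010
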