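/-
helper71 — row 9 (S0010), work package PL: uniqueness of "power lines".

If `(P + lam c)^m` and `(P' + lam' c)^m'` agree up to non-zero `p`-th power factors for all `c`
(`P ∉ L^p`, `lam, lam'` with values in `L^p`, `lam c0 = lam' c0 = 0`, `lam c1 ≠ 0`,
`0 < m, m' < p`), then `m = m'`, `P' = e * P` and `lam' = e * lam` for a non-zero `e ∈ L^p`.

Proof: logarithmic derivative with respect to a derivation `D` with `D P = 1` vanishing on
`L^p` (helper31's `exists_derivation_of_notMem`).
-/
import Crest.Agent.Helper31.S0010.Deriv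

set_option autoImplicit false

namespace Crest.Agent.Helper71.S0010

open Crest.Agent.Helper31.S0010

variable {L : Type*} [Field L] {p : ℕ} [Fact p.Prime] [CharP L p]

omit [Fact p.Prime] in
/-- A natural number `0 < m < p` is non-zero in a ring of characteristic `p`. -/
theorem natCast_ne_zero_of_lt {m : ℕ} (hm : 0 < m) (hmp : m < p) : (m : L) ≠ 0 := by
  intro h0
  have hdvd : p ∣ m := (CharP.cast_eq_zero_iff L p m).1 h0
  exact absurd (Nat.le_of_dvd hm hdvd) (not_le.2 hmp)

omit [Fact p.Prime] in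
/-- **(PL), derivation form.**  Here `D` is any derivation with `D P = 1` that vanishes at
the values of `lam` and `lam'`; `C` is any subfield killed by `D`. -/
theorem power_line_unique_core (C : Subfield L) (D : Derivation ℤ L L)
    (hDC : ∀ a ∈ C, D a = 0) {P P' : L} (hDP : D P = 1) {ι : Type*} (c0 c1 : ι)
    (lam lam' : ι → L) (hlam : ∀ c, lam c ∈ C) (hlam' : ∀ c, lam' c ∈ C)
    (h0 : lam c0 = 0) (h0' : lam' c0 = 0) (h1 : lam c1 ≠ 0)
    {m m' : ℕ} (hm : 0 < m) (hmp : m < p) (hm' : 0 < m') (hmp' : m' < p)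
    (hrel : ∀ c, ∃ e ∈ C, e ≠ 0 ∧ (P + lam c) ^ m = e * (P' + lam' c) ^ m') :
    m = m' ∧ ∃ e ∈ C, e ≠ 0 ∧ P' = e * P ∧ ∀ c, lam' c = e * lam c := by
  have hPC : P ∉ C := fun hc => one_ne_zero (hDP ▸ hDC P hc)
  have hmL : (m : L) ≠ 0 := natCast_ne_zero_of_lt hm hmp
  have hmL' : (m' : L) ≠ 0 := natCast_ne_zero_of_lt hm' hmp'
  have hPl : ∀ c, P + lam c ≠ 0 := by
    intro c h0
    apply hPC
    have : P = -lam c := eq_neg_of_add_eq_zero_left h0
    rw [this]; exact C.neg_mem (hlam c)
  -- the key linear relation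
  have key : ∀ c, (m : L) * (P' + lam' c) = m' * D P' * (P + lam c) := by
    intro c
    obtain ⟨e, he, he0, hrc⟩ := hrel c
    have hd := congrArg D hrc
    rw [Derivation.leibniz_pow, Derivation.leibniz, Derivation.leibniz_pow, map_add, map_add,
      hDP, hDC _ (hlam c), hDC _ (hlam' c), hDC e he] at hd
    simp only [smul_eq_mul, nsmul_eq_mul, add_zero, mul_zero, mul_one] at hd
    have hpow : (P + lam c) ^ m = (P + lam c) ^ (m - 1) * (P + lam c) := by
      rw [← pow_succ, Nat.sub_add_cancel hm]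
    have hpow' : (P' + lam' c) ^ m' = (P' + lam' c) ^ (m' - 1) * (P' + lam' c) := by
      rw [← pow_succ, Nat.sub_add_cancel hm']
    have hne : (P + lam c) ^ (m - 1) ≠ 0 := pow_ne_zero _ (hPl c)
    apply mul_left_cancel₀ hne
    have hrc' := hrc
    rw [hpow, hpow'] at hrc'
    linear_combination (P' + lam' c) * hd + (-(m' : L) * D P') * hrc'
  have k0 := key c0
  rw [h0, h0', add_zero, add_zero] at k0
  have k1 := key c1
  -- `D P' ∈ C`
  have hk1 : (m : L) * lam' c1 = m' * D P' * lam c1 := by linear_combination k1 - k0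
  have hDP'C : D P' ∈ C := by
    have : D P' = (m : L) * lam' c1 / (m' * lam c1) := by
      field_simp
      linear_combination -hk1
    rw [this]
    exact C.div_mem (C.mul_mem (natCast_mem C m) (hlam' c1))
      (C.mul_mem (natCast_mem C m') (hlam c1))
  set e : L := m' * D P' / m with he_def
  have heC : e ∈ C := C.div_mem (C.mul_mem (natCast_mem C m') hDP'C) (natCast_mem C m)
  have hP' : P' = e * P := by
    rw [he_def]; field_simp; linear_combination k0
  have hDe : D P' = e := by
    rw [hP', Derivation.leibniz, hDP, hDC e heC]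
    simp
  have he0 : e ≠ 0 := by
    intro he0
    rw [he0] at hDe
    rw [he0, zero_mul] at hP'
    obtain ⟨e', -, -, hrc⟩ := hrel c0
    have hl : (m : L) * (P' + lam' c0) = 0 := by rw [key c0, hDe]; ring
    have hz : P' + lam' c0 = 0 := (mul_eq_zero.1 hl).resolve_left hmL
    rw [hz, zero_pow hm'.ne', mul_zero] at hrc
    exact hPl c0 (pow_eq_zero_iff hm.ne' |>.1 hrc)
  have hmm : (m : L) = (m' : L) := by
    have h3 : e * ((m : L) - m') = 0 := by
      have h4 : e * m = m' * D P' := by rw [he_def]; field_simp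
      rw [hDe] at h4
      linear_combination h4
    exact sub_eq_zero.1 ((mul_eq_zero.1 h3).resolve_left he0)
  have hmm' : m = m' := CharP.natCast_injOn_Iio L p hmp hmp' hmm
  refine ⟨hmm', e, heC, he0, hP', fun c => ?_⟩
  have kc := key c
  rw [hDe, ← hmm, hP'] at kc
  have h5 : (m : L) * (lam' c - e * lam c) = 0 := by linear_combination kc
  exact sub_eq_zero.1 ((mul_eq_zero.1 h5).resolve_left hmL)

/-- **(PL), uniqueness of power lines** (helper31's names). -/
theorem power_line_unique {P P' : L} (hP : P ∉ pPow (L := L) p) {ι : Type*} (c0 c1 : ι)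
    (lam lam' : ι → L) (hlam : ∀ c, lam c ∈ pPow (L := L) p)
    (hlam' : ∀ c, lam' c ∈ pPow (L := L) p)
    (h0 : lam c0 = 0) (h0' : lam' c0 = 0) (h1 : lam c1 ≠ 0)
    {m m' : ℕ} (hm : 0 < m) (hmp : m < p) (hm' : 0 < m') (hmp' : m' < p)
    (hrel : ∀ c, ∃ e ∈ pPow (L := L) p, e ≠ 0 ∧ (P + lam c) ^ m = e * (P' + lam' c) ^ m') :
    m = m' ∧ ∃ e ∈ pPow (L := L) p, e ≠ 0 ∧ P' = e * P ∧ ∀ c, lam' c = e * lam c := by
  obtain ⟨D, hDC, hDP⟩ := exists_derivation_of_notMem p (pPow p) (pow_mem_pPow p) hP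
  exact power_line_unique_core (pPow p) D hDC hDP c0 c1 lam lam' hlam hlam' h0 h0' h1 hm hmp
    hm' hmp' hrel

end Crest.Agent.Helper71.S0010
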